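import Mathlib

/-!
Hierarchical frequencies for a quartic Salem number.
-/

set_option autoImplicit false

namespace Crest.Agent.H5.Sal

open Real Filter Topology Finset

/-- modulus of the cosine factor -/
noncomputable def cc (u : ℝ) : ℝ := |cos (π * u)|

lemma cc_nonneg (u : ℝ) : 0 ≤ cc u := abs_nonneg _

lemma cc_le_one (u : ℝ) : cc u ≤ 1 := abs_cos_le_one _

lemma cc_neg (u : ℝ) : cc (-u) = cc u := by simp [cc]

lemma cc_int (u : ℝ) (n : ℤ) : cc (u + n) = cc u := by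
  unfold cc
  rw [mul_add, mul_comm π (n : ℝ), cos_add_int_mul_pi, abs_mul, abs_zpow, abs_neg, abs_one,
    one_zpow, one_mul]

lemma cc_lip {u v δ : ℝ} (h : ∃ n : ℤ, |u - v - n| ≤ δ) : cc u ≤ cc v + π * δ := by
  obtain ⟨n, h⟩ := h
  rw [← cc_int v n]
  have a1 := abs_cos_sub_cos_le (π * u) (π * (v + n))
  rw [← mul_sub, abs_mul, abs_of_pos pi_pos, ← sub_sub] at a1
  have a2 := abs_sub_abs_le_abs_sub (cos (π * u)) (cos (π * (v + n)))
  unfold cc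
  nlinarith [pi_pos]

lemma cc_ratio {u v δ c : ℝ} (c0 : 0 < c) (hv : c ≤ cc v) (h : ∃ n : ℤ, |u - v - n| ≤ δ) :
    cc u ≤ cc v * exp (π * δ / c) := by
  have δ0 : 0 ≤ δ := h.elim fun _ h => (abs_nonneg _).trans h
  have a1 := mul_le_mul_of_nonneg_left (add_one_le_exp (π * δ / c)) (cc_nonneg v)
  have a2 := mul_le_mul_of_nonneg_right hv (show 0 ≤ π * δ / c by positivity)
  rw [mul_div_cancel₀ _ c0.ne'] at a2
  linarith [cc_lip h]

lemma cc_low {u x c : ℝ} (c0 : 0 < c) (hu : c ≤ cc u) (h : ∃ n : ℤ, |u - n| ≤ x) :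
    exp (-(16 / c * x ^ 2)) ≤ cc u := by
  obtain ⟨n, h⟩ := h
  have c1 : 1 ≤ 1 / c := by rw [le_div_iff₀ c0]; linarith [cc_le_one u]
  have e1 : 16 / c = 16 * (1 / c) := by ring
  rcases le_total x (1 / 4) with h1 | h1
  · have a1 : cc u = cc (u - n) := by rw [← cc_int (u - n) n, sub_add_cancel]
    have a2 := one_sub_sq_div_two_le_cos (x := π * (u - n))
    have a3 : (u - n) ^ 2 ≤ x ^ 2 := sq_le_sq' (abs_le.1 h).1 (abs_le.1 h).2
    have a4 : π ^ 2 ≤ 16 := by nlinarith [pi_le_four, pi_pos]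
    have x0 : 0 ≤ x := (abs_nonneg _).trans h
    have a5 : (π * (u - n)) ^ 2 ≤ 16 * x ^ 2 := by
      rw [mul_pow]; exact mul_le_mul a4 a3 (sq_nonneg _) (by norm_num)
    have a6 : x ^ 2 ≤ 1 / 16 := by nlinarith
    have a7 : exp (-(16 * x ^ 2)) ≤ 1 - 8 * x ^ 2 := by
      rw [exp_neg, inv_le_comm₀ (exp_pos _) (by linarith), inv_eq_one_div,
        div_le_iff₀ (by linarith)]
      nlinarith [add_one_le_exp (16 * x ^ 2), sq_nonneg x]
    rw [a1]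
    refine le_trans (exp_le_exp.2 ?_) (a7.trans (le_trans (by linarith) (le_abs_self _)))
    rw [e1]; nlinarith [sq_nonneg x]
  · refine le_trans (exp_le_exp.2 (show _ ≤ -(1 / c) by
      rw [e1]; nlinarith [show 1 / 16 ≤ x ^ 2 by nlinarith])) (le_trans ?_ hu)
    rw [exp_neg, inv_le_comm₀ (exp_pos _) c0, inv_eq_one_div]
    linarith [add_one_le_exp (1 / c)]

lemma prod_cc {s : Finset ℕ} {u v δ : ℕ → ℝ} {c Δ : ℝ} (c0 : 0 < c) (hv : ∀ i ∈ s, c ≤ cc (v i))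
    (h : ∀ i ∈ s, ∃ n : ℤ, |u i - v i - n| ≤ δ i) (hΔ : ∑ i ∈ s, δ i ≤ Δ) :
    ∏ i ∈ s, cc (u i) ≤ (∏ i ∈ s, cc (v i)) * exp (π * Δ / c) := by
  refine (prod_le_prod (fun i _ => cc_nonneg _) fun i hi => cc_ratio c0 (hv i hi) (h i hi)).trans ?_
  rw [prod_mul_distrib, ← exp_sum, ← sum_div, ← mul_sum]
  have := prod_nonneg fun i (_ : i ∈ s) => cc_nonneg (v i)
  gcongr

lemma prod_low {s : Finset ℕ} {u x : ℕ → ℝ} {c X : ℝ} (c0 : 0 < c) (hu : ∀ i ∈ s, c ≤ cc (u i))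
    (h : ∀ i ∈ s, ∃ n : ℤ, |u i - n| ≤ x i) (hX : ∑ i ∈ s, x i ^ 2 ≤ X) :
    exp (-(16 / c * X)) ≤ ∏ i ∈ s, cc (u i) := by
  refine le_trans ?_ (prod_le_prod (fun i _ => (exp_pos _).le) fun i hi =>
    cc_low c0 (hu i hi) (h i hi))
  rw [← exp_sum, sum_neg_distrib, ← mul_sum]
  gcongr

variable {β κ ρ : ℝ} {z : ℂ}

/-- sum of the geometric series -/
noncomputable def b1 (β : ℝ) : ℝ := (1 - β⁻¹)⁻¹

lemma geo_inj (hβ : 1 < β) (s : Finset ℕ) (e : ℕ → ℕ) (he : Set.InjOn e s) :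
    ∑ i ∈ s, β⁻¹ ^ e i ≤ b1 β := by
  have h0 : 0 ≤ β⁻¹ := by positivity
  have h1 := inv_lt_one_of_one_lt₀ hβ
  rw [← sum_image (f := fun j => β⁻¹ ^ j) he, b1, ← tsum_geometric_of_lt_one h0 h1]
  exact (summable_geometric_of_lt_one h0 h1).sum_le_tsum _ fun _ _ => by positivity

lemma b1_nonneg (hβ : 1 < β) : 0 ≤ b1 β := by simpa using geo_inj hβ ∅ id (by simp)

lemma zp_le (hβ : 1 < β) {k : ℤ} {i : ℕ} (h : k ≤ -i) : β ^ k ≤ β⁻¹ ^ i := by
  rw [inv_pow, ← zpow_natCast, ← zpow_neg]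
  exact zpow_le_zpow_right₀ hβ.le h

lemma sq_ip (hβ : 1 < β) (i : ℕ) : (β⁻¹ ^ i) ^ 2 ≤ β⁻¹ ^ i := by
  have h0 : 0 ≤ β⁻¹ ^ i := by positivity
  nlinarith [pow_le_one₀ (n := i) (show 0 ≤ β⁻¹ by positivity) (inv_lt_one_of_one_lt₀ hβ).le]

/-- standing assumptions -/
structure Hyp (β κ ρ : ℝ) (z : ℂ) : Prop where
  hβ : 1 < β
  κ0 : 0 < κ
  κ1 : κ ≤ 1
  ρ0 : 0 ≤ ρ
  ρ1 : ρ ≤ 1
  hz : ‖z‖ = 1

/-- an element of the ring generated by `β` with its conjugates -/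
structure Ok (β κ ρ : ℝ) (z : ℂ) (g g' : ℝ) (h : ℂ) (W : ℕ) : Prop where
  int : ∀ k : ℤ, ∃ n : ℤ, κ * g * β ^ k = n + κ * g' * β ^ (-k) + ρ * (h * z ^ k).im
  one_le : 1 ≤ g
  le_pow : g ≤ β ^ W
  bd : |g'| ≤ 1

/-- the frequencies -/
noncomputable def aa (β κ g : ℝ) (k : ℤ) : ℝ := κ * g * β ^ k

variable {g g' : ℝ} {h : ℂ} {W : ℕ}

lemma aa_next (H : Hyp β κ ρ z) (m : ℕ) (k : ℤ) :
    aa β κ (g * (β ^ m - 1)) k = aa β κ g (k + m) - aa β κ g k := by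
  unfold aa
  rw [zpow_add₀ (by linarith [H.hβ]), zpow_natCast]; ring

lemma Ok.next (H : Hyp β κ ρ z) (o : Ok β κ ρ z g g' h W) {m : ℕ} (hm : 2 ≤ β ^ m) :
    Ok β κ ρ z (g * (β ^ m - 1)) (g' * (β⁻¹ ^ m - 1)) (h * (z ^ m - 1)) (W + m) := by
  have b0 : 0 < β := by linarith [H.hβ]
  have z0 : z ≠ 0 := fun h => by simpa [h] using H.hz
  refine ⟨fun k => ?_, by nlinarith [o.one_le], ?_, ?_⟩
  · obtain ⟨n, h1⟩ := o.int (k + m)
    obtain ⟨n', h2⟩ := o.int k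
    refine ⟨n - n', ?_⟩
    rw [neg_add, zpow_add₀ b0.ne', zpow_add₀ b0.ne', zpow_add₀ z0, zpow_neg β m, zpow_natCast,
      zpow_natCast, ← inv_pow] at h1
    rw [show h * (z ^ m - 1) * z ^ k = h * (z ^ k * z ^ m) - h * z ^ k by ring, Complex.sub_im]
    push_cast
    linarith
  · rw [pow_add]
    exact mul_le_mul o.le_pow (by linarith) (by linarith) (by positivity)
  · rw [abs_mul]
    refine mul_le_one₀ o.bd (abs_nonneg _) (abs_le.2 ⟨?_, ?_⟩)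
    · linarith [show 0 ≤ β⁻¹ ^ m by positivity]
    · linarith [pow_le_one₀ (n := m) (show 0 ≤ β⁻¹ by positivity) (inv_lt_one_of_one_lt₀ H.hβ).le]

lemma abs_im_le (H : Hyp β κ ρ z) {ε : ℝ} (hε : ‖h‖ ≤ ε) (k : ℤ) : |ρ * (h * z ^ k).im| ≤ ε := by
  rw [abs_mul, abs_of_nonneg H.ρ0]
  refine (mul_le_of_le_one_left (abs_nonneg _) H.ρ1).trans ((Complex.abs_im_le_norm _).trans ?_)
  rwa [norm_mul, norm_zpow, H.hz, one_zpow, mul_one]

lemma Ok.near (H : Hyp β κ ρ z) (o : Ok β κ ρ z g g' h W) {ε : ℝ} (hε : ‖h‖ ≤ ε) {k : ℤ} {i : ℕ}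
    (hk : (i : ℤ) ≤ k) : ∃ n : ℤ, |aa β κ g k - n| ≤ β⁻¹ ^ i + ε := by
  have b0 : 0 < β := by linarith [H.hβ]
  obtain ⟨n, h1⟩ := o.int k
  refine ⟨n, ?_⟩
  rw [aa, h1, add_assoc, add_sub_cancel_left]
  refine (abs_add_le _ _).trans (add_le_add ?_ (abs_im_le H hε k))
  rw [abs_mul, abs_mul, abs_of_pos H.κ0, abs_of_pos (zpow_pos b0 _)]
  exact (mul_le_of_le_one_left (zpow_pos b0 _).le (mul_le_one₀ H.κ1 (abs_nonneg _) o.bd)).trans
    (zp_le H.hβ (by omega))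

lemma Ok.left (H : Hyp β κ ρ z) (o : Ok β κ ρ z g g' h W) {k : ℤ} {i : ℕ} (hk : k + W ≤ -i) :
    |aa β κ g k| ≤ β⁻¹ ^ i := by
  have b0 : 0 < β := by linarith [H.hβ]
  have := H.κ0
  have := o.one_le
  rw [aa, abs_of_pos (by positivity)]
  refine le_trans ?_ (zp_le H.hβ hk)
  rw [zpow_add₀ b0.ne', zpow_natCast, mul_comm (β ^ k)]
  exact mul_le_mul_of_nonneg_right ((mul_le_of_le_one_left (by linarith) H.κ1).trans o.le_pow)
    (by positivity)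

/-- product over the window -/
noncomputable def WP (β κ g : ℝ) (W : ℕ) : ℝ := ∏ i ∈ range (W + 1), cc (aa β κ g (-i))

lemma WP_nonneg : 0 ≤ WP β κ g W := prod_nonneg fun _ _ => cc_nonneg _

lemma sumR (H : Hyp β κ ρ z) {ε E : ℝ} (h1 : (W + 1) * ε ≤ E) :
    ∑ i ∈ range (W + 1), (β⁻¹ ^ (W - i) + ε) ≤ b1 β + E := by
  rw [sum_add_distrib, sum_const, card_range, nsmul_eq_mul]
  push_cast
  exact add_le_add (geo_inj H.hβ _ _ fun a ha b hb h => by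
    simp only [coe_range, Set.mem_Iio] at ha hb h; omega) h1

lemma step_c (H : Hyp β κ ρ z) (o : Ok β κ ρ z g g' h W) {ε c : ℝ} (hε : ‖h‖ ≤ ε) {R m : ℕ}
    (hR : β⁻¹ ^ R ≤ ε) (hm : W + 2 * R ≤ m) (hc : ∀ k, c ≤ cc (aa β κ g k)) (k : ℤ) :
    c - 2 * π * ε ≤ cc (aa β κ (g * (β ^ m - 1)) k) := by
  rw [aa_next H]
  have ε0 : 0 ≤ ε := (norm_nonneg _).trans hε
  rcases le_total (R : ℤ) (k + m) with h1 | h1
  · obtain ⟨n, hn⟩ := o.near H hε h1
    have := cc_lip (u := -aa β κ g k) (v := aa β κ g (k + m) - aa β κ g k) (δ := 2 * ε)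
      ⟨-n, by rw [← abs_neg]; push_cast; ring_nf at hn ⊢; linarith⟩
    rw [cc_neg] at this
    linarith [hc k]
  · have hn := o.left H (k := k) (i := R) (by omega)
    have := cc_lip (u := aa β κ g (k + m)) (v := aa β κ g (k + m) - aa β κ g k) (δ := 2 * ε)
      ⟨0, by simp only [sub_sub_cancel, Int.cast_zero, sub_zero]; linarith⟩
    linarith [hc (k + m)]

/-- the constant lost in each step -/
noncomputable def CC (β c E : ℝ) : ℝ := 2 * (π * (b1 β + E) / c) + 16 / c * (6 * (b1 β + E))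

lemma step_cost (H : Hyp β κ ρ z) (o : Ok β κ ρ z g g' h W) {ε c E : ℝ} (c0 : 0 < c)
    (hε : ‖h‖ ≤ ε) {m : ℕ} (hm : W + 1 ≤ m) (h1 : (W + 1) * ε ≤ E) (h2 : m * ε ^ 2 ≤ E)
    (hc : ∀ k, c ≤ cc (aa β κ (g * (β ^ m - 1)) k)) :
    WP β κ g W ^ 2 * exp (-CC β c E) ≤ WP β κ (g * (β ^ m - 1)) (W + m) := by
  have ε0 : 0 ≤ ε := (norm_nonneg _).trans hε
  have E0 : 0 ≤ E := le_trans (by positivity) h1
  have b0 := b1_nonneg H.hβ
  set a' := aa β κ (g * (β ^ m - 1)) with ha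
  have p1 : WP β κ g W ≤ (∏ i ∈ range (W + 1), cc (a' (-i))) * exp (π * (b1 β + E) / c) := by
    have := prod_cc (s := range (W + 1)) (u := fun i => -aa β κ g (-i)) (v := fun i => a' (-i)) c0
      (fun i _ => hc _) (fun i hi => ?_) (sumR H h1)
    · simpa only [cc_neg, WP] using this
    obtain ⟨n, hn⟩ := o.near H hε (k := -i + m) (i := W - i) (by rw [mem_range] at hi; omega)
    exact ⟨-n, by rw [ha, aa_next H, ← abs_neg]; push_cast; ring_nf at hn ⊢; linarith⟩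
  have p2 : WP β κ g W ≤ (∏ i ∈ range (W + 1), cc (a' (-(m + i : ℕ)))) *
      exp (π * (b1 β + E) / c) := by
    refine prod_cc (δ := fun i => β⁻¹ ^ i) c0 (fun i _ => hc _) (fun i hi => ⟨0, ?_⟩)
      ((geo_inj H.hβ _ id fun _ _ _ _ h => h).trans (by linarith))
    rw [ha, aa_next H, show -((m + i : ℕ) : ℤ) + m = -i by push_cast; ring]
    simpa using o.left H (k := -(m + i : ℕ)) (i := i) (by omega)
  have p3 : exp (-(16 / c * (6 * (b1 β + E)))) ≤ ∏ i ∈ Ico (W + 1) m, cc (a' (-i)) := by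
    refine prod_low (x := fun i => β⁻¹ ^ (m - i) + ε + β⁻¹ ^ (i - W)) c0 (fun i _ => hc _)
      (fun i hi => ?_) ?_
    · rw [mem_Ico] at hi
      obtain ⟨n, hn⟩ := o.near H hε (k := -i + m) (i := m - i) (by omega)
      have := o.left H (k := -i) (i := i - W) (by omega)
      refine ⟨n, ?_⟩
      rw [ha, aa_next H, sub_right_comm]
      exact (abs_sub _ _).trans (add_le_add hn this)
    · refine (sum_le_sum (g := fun i => 3 * β⁻¹ ^ (m - i) + 3 * ε ^ 2 + 3 * β⁻¹ ^ (i - W))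
        fun i _ => ?_).trans ?_
      · nlinarith [sq_ip H.hβ (m - i), sq_ip H.hβ (i - W), sq_nonneg (β⁻¹ ^ (m - i) - ε),
          sq_nonneg (β⁻¹ ^ (i - W) - ε), sq_nonneg (β⁻¹ ^ (m - i) - β⁻¹ ^ (i - W))]
      · rw [sum_add_distrib, sum_add_distrib, ← mul_sum, ← mul_sum, ← mul_sum, sum_const,
          nsmul_eq_mul, Nat.card_Ico]
        have q1 := geo_inj H.hβ (Ico (W + 1) m) (fun i => m - i) fun a ha b hb h => by
          simp only [coe_Ico, Set.mem_Ico] at ha hb h; omega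
        have q2 := geo_inj H.hβ (Ico (W + 1) m) (fun i => i - W) fun a ha b hb h => by
          simp only [coe_Ico, Set.mem_Ico] at ha hb h; omega
        have q3 : ((m - (W + 1) : ℕ) : ℝ) ≤ m := by exact_mod_cast Nat.sub_le _ _
        nlinarith [mul_le_mul_of_nonneg_right q3 (sq_nonneg ε)]
  have e1 : WP β κ (g * (β ^ m - 1)) (W + m) = (∏ i ∈ range (W + 1), cc (a' (-i))) *
      (∏ i ∈ Ico (W + 1) m, cc (a' (-i))) * ∏ i ∈ range (W + 1), cc (a' (-(m + i : ℕ))) := by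
    rw [WP, show W + m + 1 = m + (W + 1) by ring, prod_range_add, prod_range_mul_prod_Ico _ hm]
  have n1 := prod_nonneg fun i (_ : i ∈ range (W + 1)) => cc_nonneg (a' (-i))
  have n2 := prod_nonneg fun i (_ : i ∈ range (W + 1)) => cc_nonneg (a' (-(m + i : ℕ)))
  rw [e1, sq]
  refine (mul_le_mul_of_nonneg_right (mul_le_mul p1 p2 WP_nonneg (by positivity))
    (exp_pos _).le).trans (le_trans (le_of_eq ?_)
      (mul_le_mul_of_nonneg_right (mul_le_mul_of_nonneg_left p3 n1) n2))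
  rw [CC, neg_add, exp_add, two_mul, neg_add, exp_add, exp_neg (π * _ / c)]
  field_simp

lemma norm_pow_sub_one (hz : ‖z‖ = 1) (q : ℕ) : ‖z ^ q - 1‖ ≤ q * ‖z - 1‖ := by
  induction q with
  | zero => simp
  | succ q ih =>
    rw [show z ^ (q + 1) - 1 = z * (z ^ q - 1) + (z - 1) by ring]
    refine (norm_add_le _ _).trans ?_
    rw [norm_mul, hz]; push_cast; linarith

lemma dirichlet (hz : ‖z‖ = 1) {A : ℕ} (hA : 1 ≤ A) {y : ℝ} (hy : 1 ≤ y) : ∃ m : ℕ, A ≤ m ∧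
    ((m ≤ y ∧ ‖z ^ m - 1‖ ≤ 2 * π / y) ∨ (m ≤ 2 * A ∧ ‖z ^ m - 1‖ ≤ 2 * A * (2 * π / y))) := by
  obtain ⟨m, m0, m1, hm⟩ := exists_nat_abs_mul_sub_round_le (z.arg / (2 * π))
    (Nat.floor_pos.2 hy)
  have a1 : ‖z ^ m - 1‖ ≤ 2 * π / y := by
    have e1 : z ^ m = Complex.exp (Complex.I *
        (2 * π * (m * (z.arg / (2 * π)) - round (m * (z.arg / (2 * π)))) : ℝ)) := by
      conv_lhs => rw [← Complex.norm_mul_exp_arg_mul_I z, hz, Complex.ofReal_one, one_mul,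
        ← Complex.exp_nat_mul]
      rw [Complex.exp_eq_exp_iff_exists_int]
      refine ⟨round (m * (z.arg / (2 * π))), ?_⟩
      have : (π : ℂ) ≠ 0 := by exact_mod_cast pi_pos.ne'
      push_cast
      field_simp
      ring
    rw [e1]
    refine Real.norm_exp_I_mul_ofReal_sub_one_le.trans ?_
    rw [norm_eq_abs, abs_mul, abs_of_pos two_pi_pos, div_eq_mul_one_div _ y]
    exact mul_le_mul_of_nonneg_left (hm.trans (one_div_le_one_div_of_le (by linarith)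
      (Nat.lt_floor_add_one y).le)) two_pi_pos.le
  rcases le_total A m with h | h
  · exact ⟨m, h, Or.inl ⟨(Nat.cast_le.2 m1).trans (Nat.floor_le (by linarith)), a1⟩⟩
  · have d1 := Nat.div_add_mod A m
    have d2 := Nat.mod_lt A m0
    have d3 : A / m + 1 ≤ 2 * A := by have := Nat.div_le_self A m; omega
    refine ⟨m * (A / m + 1), by rw [mul_add]; omega, Or.inr ⟨by rw [mul_add]; omega, ?_⟩⟩
    rw [pow_mul]
    refine (norm_pow_sub_one (by rw [norm_pow, hz, one_pow]) _).trans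
      (mul_le_mul (by exact_mod_cast d3) a1 (norm_nonneg _) (by positivity))

end Crest.Agent.H5.Sal
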