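import Mathlib
import Crest.Agent.H5.Sal.Freq

/-!
The recursion producing frequencies with small neutral part and small cost.
-/

set_option autoImplicit false

namespace Crest.Agent.H5.Sal

open Real Filter Topology Finset

variable {β κ ρ : ℝ} {z : ℂ} {g g' : ℝ} {h : ℂ} {W : ℕ}

/-- state of the recursion -/
def St (β κ ρ : ℝ) (z : ℂ) (c E l x w S : ℝ) : Prop := ∃ (g g' : ℝ) (h : ℂ) (W : ℕ),
  Ok β κ ρ z g g' h W ∧ ‖h‖ ≤ exp (-x) ∧ W ≤ E * exp w ∧
    (∀ k, c + 4 * π * exp (-x) ≤ cc (aa β κ g k)) ∧ exp (-S) ≤ WP β κ g W ∧ 0 ≤ w ∧ w ≤ x ∧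
    x ≤ exp w * log β ∧ 16 * l ≤ x

lemma St.step (H : Hyp β κ ρ z) {c E l x w S : ℝ} (c0 : 0 < c) (E1 : 1 ≤ E)
    (hl : 24 * π * E ≤ exp l) (s : St β κ ρ z c E l x w S) : ∃ x' w',
      St β κ ρ z c E l x' w' (2 * S + CC β c (12 * E)) ∧ 9 / 4 * (x - w / 3) ≤ x' - w' / 3 := by
  obtain ⟨g, g', h, W, o, hε, hW, hc, hS, w0, wx, xw, xl⟩ := s
  have b0 : 0 < β := by linarith [H.hβ]
  have lb := log_pos H.hβ
  have l72 : 72 ≤ exp l := by nlinarith [pi_gt_three]
  have l1 : 1 ≤ l := by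
    by_contra h
    linarith [exp_le_exp.2 (not_le.1 h).le, exp_one_lt_d9]
  have ew : 1 ≤ exp w := one_le_exp w0
  set R := ⌈E * exp w⌉₊ with hR
  have R1 : E * exp w ≤ R := Nat.le_ceil _
  have R2 : (R : ℝ) ≤ 2 * (E * exp w) := by
    have := Nat.ceil_lt_add_one (show 0 ≤ E * exp w by positivity)
    nlinarith
  have R3 : W ≤ R := by exact_mod_cast hW.trans R1
  have R4 : 1 ≤ R := by
    have : (1 : ℝ) ≤ R := by nlinarith
    exact_mod_cast this
  have R5 : exp x ≤ β ^ R := by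
    rw [← exp_log (pow_pos b0 R), log_pow, exp_le_exp]
    nlinarith [mul_le_mul_of_nonneg_right (show exp w ≤ R by nlinarith) lb.le]
  have R6 : β⁻¹ ^ R ≤ exp (-x) := by rw [inv_pow, exp_neg]; exact inv_anti₀ (exp_pos _) R5
  obtain ⟨m, hm, hd⟩ := dirichlet H.hz (A := 3 * R) (by omega) (y := exp (2 * x))
    (one_le_exp (by linarith))
  have m2 : 2 ≤ β ^ m := le_trans (by linarith [add_one_le_exp x])
    (R5.trans (pow_le_pow_right₀ H.hβ.le (by omega)))
  have hc' := step_c H o hε R6 (show W + 2 * R ≤ m by omega) hc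
  have p0 : 0 < π * exp (-x) := by positivity
  have wx' : exp w * exp (-x) ≤ 1 := by rw [← exp_add]; exact exp_le_one_iff.2 (by linarith)
  have x1 : exp (-x) ≤ 1 := exp_le_one_iff.2 (by linarith)
  have e2 : exp (2 * x) * exp (-x) ^ 2 = 1 := by rw [sq, ← exp_add, ← exp_add]; simp [two_mul]
  have key : ∀ x' w', m * exp (-x) ^ 2 ≤ 12 * E → exp (-x) * ‖z ^ m - 1‖ ≤ exp (-x') →
      W + m ≤ E * exp w' → x + 1 ≤ x' → x' ≤ 3 * x → w + l ≤ w' → w' ≤ x' →
      St β κ ρ z c E l x' w' (2 * S + CC β c (12 * E)) := by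
    intro x' w' a1 a2 a3 a4 a5 a6 a7
    have a8 : 2 * exp (-x') ≤ exp (-x) := by
      have := exp_le_exp.2 (show -x' + 1 ≤ -x by linarith)
      rw [exp_add] at this
      nlinarith [add_one_le_exp (1 : ℝ), exp_pos (-x')]
    refine ⟨_, _, _, _, o.next H m2, ?_, by exact_mod_cast a3, fun k => ?_, ?_, by linarith, a7, ?_,
      by linarith⟩
    · rw [norm_mul]
      exact (mul_le_mul_of_nonneg_right hε (norm_nonneg _)).trans a2
    · nlinarith [hc' k, pi_pos]
    · refine le_trans ?_ (step_cost H o c0 hε (by omega) ?_ a1 fun k => by linarith [hc' k])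
      · rw [neg_add, exp_add, show -(2 * S) = -S + -S by ring, exp_add, ← sq]
        gcongr
      · nlinarith [mul_le_mul_of_nonneg_right hW (exp_pos (-x)).le]
    · have := exp_le_exp.2 a6
      rw [exp_add] at this
      nlinarith [mul_le_mul_of_nonneg_right (show 3 * exp w ≤ exp w' by nlinarith) lb.le]
  rcases hd with ⟨d1, d2⟩ | ⟨d1, d2⟩
  · refine ⟨3 * x - l, 2 * x + l, key _ _ ?_ ?_ ?_ (by linarith) (by linarith) (by linarith)
      (by linarith), by linarith⟩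
    · nlinarith [mul_le_mul_of_nonneg_right d1 (sq_nonneg (exp (-x)))]
    · refine (mul_le_mul_of_nonneg_left d2 (exp_pos _).le).trans ?_
      rw [show -(3 * x - l) = -x + (l - 2 * x) by ring, exp_add, exp_sub]
      gcongr
      nlinarith [pi_pos]
    · have := exp_le_exp.2 (show w ≤ 2 * x by linarith)
      rw [exp_add]
      nlinarith [mul_le_mul_of_nonneg_left this (show 0 ≤ E by linarith), exp_pos (2 * x),
        mul_le_mul_of_nonneg_right E1 (exp_pos (2 * x)).le,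
        mul_le_mul_of_nonneg_left l72 (show 0 ≤ E * exp (2 * x) by positivity)]
  · have d3 : (m : ℝ) ≤ 12 * (E * exp w) := by
      have : (m : ℝ) ≤ (2 * (3 * R) : ℕ) := by exact_mod_cast d1
      push_cast at this; linarith
    refine ⟨3 * x - w - l, w + l, key _ _ ?_ ?_ ?_ (by linarith) (by linarith) (by linarith)
      (by linarith), by linarith⟩
    · have a1 : exp w * exp (-x) ^ 2 ≤ 1 := by nlinarith [exp_pos (-x)]
      nlinarith [mul_le_mul_of_nonneg_right d3 (sq_nonneg (exp (-x)))]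
    · refine (mul_le_mul_of_nonneg_left d2 (exp_pos _).le).trans ?_
      rw [show -(3 * x - w - l) = -x + (w + l - 2 * x) by ring, exp_add, exp_sub, exp_add,
        ← mul_div_assoc]
      refine mul_le_mul_of_nonneg_left (div_le_div_of_nonneg_right ?_ (exp_pos _).le) (exp_pos _).le
      push_cast
      nlinarith [mul_le_mul_of_nonneg_left R2 pi_pos.le,
        mul_le_mul_of_nonneg_left hl (exp_pos w).le]
    · rw [exp_add]
      nlinarith [mul_le_mul_of_nonneg_left l72 (show 0 ≤ E * exp w by positivity)]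

lemma St.start (H : Hyp β κ ρ z) (o : Ok β κ ρ z 1 1 1 0) {c0 : ℝ} (h0 : 0 < c0)
    (hc : ∀ k, c0 ≤ cc (aa β κ 1 k)) : ∃ E l x S : ℝ, 1 ≤ E ∧ 24 * π * E ≤ exp l ∧ 0 < x ∧
      St β κ ρ z (c0 / 2) E l x x S := by
  have b0 : 0 < β := by linarith [H.hβ]
  have lb := log_pos H.hβ
  obtain ⟨A, ⟨a1, a2⟩, a3⟩ := ((((tendsto_pow_atTop_nhds_zero_of_lt_one (show 0 ≤ β⁻¹ by positivity)
    (inv_lt_one_of_one_lt₀ H.hβ)).const_mul π).eventually (gt_mem_nhds
      (show _ < c0 / 4 by simpa using h0))).and ((tendsto_pow_atTop_atTop_of_one_lt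
        H.hβ).eventually_ge_atTop 2) |>.and (eventually_ge_atTop 1)).exists
  have A1 : (1 : ℝ) ≤ A := by exact_mod_cast a3
  have E1 : 1 ≤ 8 * π * A := by nlinarith [pi_gt_three]
  obtain ⟨x, ⟨⟨x1, x2⟩, x3⟩, x4⟩ := ((((tendsto_exp_neg_atTop_nhds_zero.const_mul
    (5 * π)).eventually (gt_mem_nhds (show _ < c0 / 4 by simpa using h0))).and
    ((tendsto_exp_div_pow_atTop 1).eventually_ge_atTop (1 / log β))).and
    (eventually_ge_atTop (16 * (24 * π * (8 * π * A)))) |>.and (eventually_gt_atTop 0)).exists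
  have ex : 1 ≤ exp x := one_le_exp x4.le
  obtain ⟨m, hm, hd⟩ := dirichlet H.hz (A := 2 * A) (by omega) (y := 8 * π * A * exp x)
    (by nlinarith)
  have m2 : 2 ≤ β ^ m := a2.trans (pow_le_pow_right₀ H.hβ.le (by omega))
  have o' := o.next H m2
  have d0 : 2 * (2 * A : ℕ) * (2 * π / (8 * π * A * exp x)) = exp (-x) := by
    rw [exp_neg]; push_cast; field_simp; norm_num
  have d1 : ‖1 * (z ^ m - 1)‖ ≤ exp (-x) := by
    rw [one_mul, ← d0]
    rcases hd with h | h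
    · exact h.2.trans (le_mul_of_one_le_left (by positivity) (by push_cast; linarith))
    · exact h.2
  have d2 : ((0 + m : ℕ) : ℝ) ≤ 8 * π * A * exp x := by
    rw [zero_add]
    rcases hd with h | h
    · exact h.1
    · have : (m : ℝ) ≤ (2 * (2 * A) : ℕ) := by exact_mod_cast h.1
      push_cast at this
      nlinarith [pi_gt_three, mul_le_mul_of_nonneg_left ex (show 0 ≤ 8 * π * A by positivity)]
  have d3 : ∀ k, c0 / 2 + 4 * π * exp (-x) ≤ cc (aa β κ (1 * (β ^ m - 1)) k) := by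
    intro k
    have p0 : 0 < π * exp (-x) := by positivity
    rcases le_total (A : ℤ) (k + m) with h1 | h1
    · obtain ⟨n, hn⟩ := o'.int k
      have e1 : -aa β κ 1 (-k) - aa β κ (1 * (β ^ m - 1)) k - (-n : ℤ) =
          -(κ * β ^ (-(k + m)) + ρ * (1 * (z ^ m - 1) * z ^ k).im) := by
        unfold aa
        rw [hn, neg_add k, zpow_add₀ b0.ne', zpow_neg β m, zpow_natCast, ← inv_pow]
        push_cast; ring
      have := cc_lip (u := -aa β κ 1 (-k)) (v := aa β κ (1 * (β ^ m - 1)) k)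
        (δ := β⁻¹ ^ A + exp (-x)) ⟨-n, by
          rw [e1, abs_neg]
          refine (abs_add_le _ _).trans (add_le_add ?_ (abs_im_le H d1 k))
          rw [abs_of_pos (mul_pos H.κ0 (zpow_pos b0 _))]
          exact (mul_le_of_le_one_left (zpow_pos b0 _).le H.κ1).trans (zp_le H.hβ (by omega))⟩
      rw [cc_neg] at this
      linarith [hc (-k)]
    · have hn := o.left H (k := k) (i := A) (by omega)
      rw [aa_next H]
      have := cc_lip (u := aa β κ 1 (k + m)) (v := aa β κ 1 (k + m) - aa β κ 1 k) (δ := β⁻¹ ^ A)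
        ⟨0, by simpa only [sub_sub_cancel, Int.cast_zero, sub_zero] using hn⟩
      linarith [hc (k + m)]
  have d4 : 0 < WP β κ (1 * (β ^ m - 1)) (0 + m) :=
    prod_pos fun i _ => lt_of_lt_of_le (by positivity) (d3 _)
  refine ⟨8 * π * A, 24 * π * (8 * π * A), x, -log (WP β κ (1 * (β ^ m - 1)) (0 + m)), E1,
    by linarith [add_one_le_exp (24 * π * (8 * π * A))], x4, _, _, _, _, o', d1, d2, d3,
    by rw [neg_neg, exp_log d4], x4.le, le_rfl, ?_, x3⟩
  rwa [pow_one, div_le_div_iff₀ lb x4, one_mul] at x2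

theorem exists_freq (H : Hyp β κ ρ z) (o : Ok β κ ρ z 1 1 1 0) {c0 : ℝ} (h0 : 0 < c0)
    (hc : ∀ k, c0 ≤ cc (aa β κ 1 k)) : ∃ c E : ℝ, 0 < c ∧ 0 < E ∧ ∀ η > 0, ∃ (g g' : ℝ) (h : ℂ)
      (W : ℕ) (x : ℝ), Ok β κ ρ z g g' h W ∧ 0 ≤ x ∧ ‖h‖ ≤ exp (-x) ∧ (W + 1) * exp (-x) ≤ E ∧
        (∀ k, c ≤ cc (aa β κ g k)) ∧ exp (-x) ≤ η * WP β κ g W ^ 2 := by
  obtain ⟨E, l, x0, S, E1, hl, x0p, s0⟩ := St.start H o h0 hc
  set C := CC β (c0 / 2) (12 * E)
  have it : ∀ j : ℕ, ∃ x w, St β κ ρ z (c0 / 2) E l x w (2 ^ j * (S + C) - C) ∧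
      (9 / 4) ^ j * (2 / 3 * x0) ≤ x - w / 3 := by
    intro j
    induction j with
    | zero => exact ⟨x0, x0, by simpa using s0, by rw [pow_zero]; linarith⟩
    | succ j ih =>
      obtain ⟨x, w, s, h1⟩ := ih
      obtain ⟨x', w', s', h2⟩ := s.step H (by positivity) E1 hl
      refine ⟨x', w', ?_, by rw [pow_succ]; linarith⟩
      convert s' using 1
      ring
  refine ⟨c0 / 2, 2 * E, by positivity, by positivity, fun η hη => ?_⟩
  have t1 : Tendsto (fun j : ℕ => (9 / 4 : ℝ) ^ j * (2 / 3 * x0 - 2 * (S + C) * (8 / 9) ^ j))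
      atTop atTop := by
    refine (tendsto_pow_atTop_atTop_of_one_lt (by norm_num)).atTop_mul_pos
      (show 0 < 2 / 3 * x0 - 2 * (S + C) * 0 by linarith) ?_
    exact ((tendsto_pow_atTop_nhds_zero_of_lt_one (by norm_num) (by norm_num)).const_mul _).const_sub _
  obtain ⟨j, hj⟩ := (t1.eventually_ge_atTop (-log η - 2 * C)).exists
  obtain ⟨x, w, ⟨g, g', h, W, o, hε, hW, hc, hS, w0, wx, -, -⟩, h1⟩ := it j
  have wx' : exp w * exp (-x) ≤ 1 := by rw [← exp_add]; exact exp_le_one_iff.2 (by linarith)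
  have x1 : exp (-x) ≤ 1 := exp_le_one_iff.2 (by linarith)
  refine ⟨g, g', h, W, x, o, by linarith, hε, ?_, fun k => le_trans (le_add_of_nonneg_right
    (by positivity)) (hc k), le_trans ?_ (mul_le_mul_of_nonneg_left
      (pow_le_pow_left₀ (exp_pos _).le hS 2) hη.le)⟩
  · nlinarith [mul_le_mul_of_nonneg_right hW (exp_pos (-x)).le]
  · rw [← exp_log hη, sq, ← exp_add, ← exp_add, exp_le_exp]
    have e1 : (9 / 4 : ℝ) ^ j * (8 / 9) ^ j = 2 ^ j := by rw [← mul_pow]; norm_num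
    rw [mul_sub, mul_left_comm _ (2 * _), e1] at hj
    linarith

lemma fin_low (H : Hyp β κ ρ z) (o : Ok β κ ρ z g g' h W) {ε c : ℝ} (c0 : 0 < c) (hε : ‖h‖ ≤ ε)
    (hc : ∀ k, c ≤ cc (aa β κ g k)) {N : ℕ} (hN : N * ε ^ 2 ≤ 1) (L : ℕ) :
    WP β κ g W * exp (-(16 / c * (3 * b1 β + 2))) ≤ ∏ n ∈ range L, cc (aa β κ g (N - n)) := by
  have p1 : exp (-(16 / c * (2 * b1 β + 2))) ≤ ∏ n ∈ range N, cc (aa β κ g (N - n)) := by
    refine prod_low (x := fun n => β⁻¹ ^ (N - n) + ε) c0 (fun i _ => hc _)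
      (fun i hi => o.near H hε (by rw [mem_range] at hi; omega)) ?_
    refine (sum_le_sum (g := fun i => 2 * β⁻¹ ^ (N - i) + 2 * ε ^ 2) fun i _ => ?_).trans ?_
    · nlinarith [sq_ip H.hβ (N - i), sq_nonneg (β⁻¹ ^ (N - i) - ε)]
    · rw [sum_add_distrib, ← mul_sum, sum_const, nsmul_eq_mul, card_range]
      have q1 := geo_inj H.hβ (range N) (fun i => N - i) fun a ha b hb h => by
        simp only [coe_range, Set.mem_Iio] at ha hb h; omega
      linarith
  have p2 : exp (-(16 / c * b1 β)) ≤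
      ∏ i ∈ range L, cc (aa β κ g (N - (N + (W + 1) + i : ℕ))) :=
    prod_low (x := fun i => β⁻¹ ^ i) c0 (fun i _ => hc _)
      (fun i _ => ⟨0, by simpa using o.left H (k := N - (N + (W + 1) + i : ℕ)) (by omega)⟩)
      ((sum_le_sum fun i _ => sq_ip H.hβ i).trans (geo_inj H.hβ _ id fun _ _ _ _ h => h))
  refine le_trans ?_ (prod_le_prod_of_subset_of_le_one (range_subset_range.2
    (show L ≤ N + (W + 1) + L by omega)) (fun _ _ => cc_nonneg _) fun _ _ _ => cc_le_one _)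
  rw [prod_range_add, prod_range_add]
  simp only [Nat.cast_add N, sub_add_cancel_left]
  refine le_trans (le_of_eq ?_) (mul_le_mul (mul_le_mul_of_nonneg_right p1 WP_nonneg) p2
    (exp_pos _).le (mul_nonneg (prod_nonneg fun _ _ => cc_nonneg _) WP_nonneg))
  rw [mul_comm (exp _), mul_assoc, ← exp_add]
  congr 2
  ring

lemma fin_up (H : Hyp β κ ρ z) (o : Ok β κ ρ z g g' h W) {ε c E : ℝ} (c0 : 0 < c) (hε : ‖h‖ ≤ ε)
    (h1 : (W + 1) * ε ≤ E) (hc : ∀ k, c ≤ cc (aa β κ g k)) {N M : ℕ} (hN : M + (W + 1) ≤ N) :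
    ∏ n ∈ range (N + (W + 1)), cc (aa β κ g (N - n) - aa β κ g (M - n)) ≤
      (WP β κ g W * exp (π * (b1 β + E) / c)) ^ 2 := by
  have ε0 : 0 ≤ ε := (norm_nonneg _).trans hε
  have E0 : 0 ≤ E := le_trans (by positivity) h1
  have p1 : ∏ i ∈ range (W + 1), cc (aa β κ g (N - (M + i : ℕ)) - aa β κ g (M - (M + i : ℕ))) ≤
      WP β κ g W * exp (π * (b1 β + E) / c) := by
    have := prod_cc (s := range (W + 1))
      (u := fun i => aa β κ g (N - (M + i : ℕ)) - aa β κ g (M - (M + i : ℕ)))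
      (v := fun i => -aa β κ g (-i)) c0
      (fun i _ => by rw [cc_neg]; exact hc _) (fun i hi => ?_) (sumR H h1)
    · simpa only [cc_neg, WP] using this
    obtain ⟨n, hn⟩ := o.near H hε (k := N - (M + i : ℕ)) (i := W - i)
      (by rw [mem_range] at hi; omega)
    exact ⟨n, by simpa using hn⟩
  have p2 : ∏ i ∈ range (W + 1), cc (aa β κ g (N - (N + i : ℕ)) - aa β κ g (M - (N + i : ℕ))) ≤
      WP β κ g W * exp (π * (b1 β + E) / c) := by
    refine prod_cc (δ := fun i => β⁻¹ ^ i) c0 (fun i _ => hc _) (fun i hi => ⟨0, ?_⟩)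
      ((geo_inj H.hβ _ id fun _ _ _ _ h => h).trans (by linarith))
    simpa using o.left H (k := M - (N + i : ℕ)) (i := i) (by omega)
  have le1 : ∀ s : Finset ℕ, ∏ n ∈ s, cc (aa β κ g (N - n) - aa β κ g (M - n)) ≤ 1 := fun s =>
    prod_le_one (fun _ _ => cc_nonneg _) fun _ _ => cc_le_one _
  have ge0 : ∀ (s : Finset ℕ) (u : ℕ → ℝ), 0 ≤ ∏ n ∈ s, cc (u n) := fun s u =>
    prod_nonneg fun _ _ => cc_nonneg _
  rw [prod_range_add, ← prod_range_mul_prod_Ico _ hN, prod_range_add, sq]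
  refine mul_le_mul ((mul_le_of_le_one_right (mul_nonneg (ge0 _ _) (ge0 _ _)) (le1 _)).trans
    ((mul_le_of_le_one_left (ge0 _ _) (le1 _)).trans p1)) p2 (ge0 _ _)
    (mul_nonneg WP_nonneg (exp_pos _).le)

end Crest.Agent.H5.Sal
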