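import Mathlib
import Crest.Agent.H5.Sal.Iter
import Crest.Agent.H5.KS.Prob

/-!
Second moment argument: the self-similar measure is not absolutely continuous.
-/

set_option autoImplicit false

namespace Crest.Agent.H5.Sal

open Real Filter Topology Finset MeasureTheory ProbabilityTheory
open Crest.Agent.H5.KS (BM int_mono int_add int_cs int_const int_sum)

variable {β κ ρ : ℝ} {z : ℂ}

/-- the functional equation -/
def SS (β : ℝ) (φ : ℝ → ℂ) : Prop := ∀ t, φ t = (cos t : ℝ) * φ (β⁻¹ * t)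

lemma SS.norm {φ : ℝ → ℂ} (h : SS β φ) (u : ℝ) (L : ℕ) :
    ‖φ (π * u)‖ = (∏ n ∈ range L, cc (β⁻¹ ^ n * u)) * ‖φ (β⁻¹ ^ L * (π * u))‖ := by
  induction L with
  | zero => simp
  | succ L ih =>
    rw [ih, h (β⁻¹ ^ L * _), prod_range_succ, norm_mul, Complex.norm_real, norm_eq_abs, mul_assoc,
      cc, mul_left_comm π, ← mul_assoc β⁻¹, ← pow_succ']

lemma tend_zero (hβ : 1 < β) {φ : ℝ → ℂ} (hc : Continuous φ) (t : ℝ) :
    Tendsto (fun L : ℕ => ‖φ (β⁻¹ ^ L * t)‖) atTop (𝓝 ‖φ 0‖) := by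
  have := (tendsto_pow_atTop_nhds_zero_of_lt_one (show 0 ≤ β⁻¹ by positivity)
    (inv_lt_one_of_one_lt₀ hβ)).mul_const t
  rw [zero_mul] at this
  exact (hc.continuousAt.tendsto.comp this).norm

lemma SS.low (hβ : 1 < β) {φ : ℝ → ℂ} (h : SS β φ) (hc : Continuous φ) (h0 : ‖φ 0‖ = 1) {u b : ℝ}
    (hb : ∀ L, b ≤ ∏ n ∈ range L, cc (β⁻¹ ^ n * u)) : b ≤ ‖φ (π * u)‖ := by
  have := (tend_zero hβ hc (π * u)).const_mul b
  rw [h0, mul_one] at this
  exact le_of_tendsto' this fun L => by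
    rw [h.norm u L]; exact mul_le_mul_of_nonneg_right (hb L) (norm_nonneg _)

lemma SS.zero (hβ : 1 < β) {φ : ℝ → ℂ} (h : SS β φ) (hc : Continuous φ) (h0 : φ 0 = 0) (t : ℝ) :
    φ t = 0 := by
  have := tend_zero hβ hc (π * (t / π))
  rw [h0, norm_zero] at this
  have a := ge_of_tendsto' this fun L => (h.norm (t / π) L).trans_le (mul_le_of_le_one_left
    (norm_nonneg _) (prod_le_one (fun _ _ => cc_nonneg _) fun _ _ => cc_le_one _))
  rwa [mul_div_cancel₀ _ pi_pos.ne', norm_le_zero_iff] at a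

/-- test function -/
noncomputable def TT (J : ℕ) (u : ℕ → ℂ) (t : ℕ → ℝ) (x : ℝ) : ℝ :=
  ∑ N ∈ range J, (u N * Complex.exp (t N * x * Complex.I)).re

lemma int_exp (μ : Measure ℝ) [IsFiniteMeasure μ] (a : ℂ) (t : ℝ) :
    Integrable (fun x : ℝ => a * Complex.exp (t * x * Complex.I)) μ := by
  refine (Integrable.of_bound (by fun_prop) 1 (Eventually.of_forall fun x => ?_)).const_mul a
  rw [← Complex.ofReal_mul, Complex.norm_exp_ofReal_mul_I]

lemma int_re (μ : Measure ℝ) [IsFiniteMeasure μ] (a : ℂ) (t : ℝ) :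
    ∫ x : ℝ, (a * Complex.exp (t * x * Complex.I)).re ∂μ = (a * charFun μ t).re := by
  rw [charFun_apply_real, ← integral_const_mul]
  exact integral_re (int_exp μ a t)

lemma bm_re (a : ℂ) (t : ℝ) : BM fun x : ℝ => (a * Complex.exp (t * x * Complex.I)).re :=
  BM.of_le (by fun_prop) ‖a‖ fun x => (Complex.abs_re_le_norm _).trans_eq (by
    rw [norm_mul, ← Complex.ofReal_mul, Complex.norm_exp_ofReal_mul_I, mul_one])

lemma bm_TT (J : ℕ) (u : ℕ → ℂ) (t : ℕ → ℝ) : BM (TT J u t) := BM.sum _ fun _ _ => bm_re _ _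

lemma int_TT (μ : Measure ℝ) [IsProbabilityMeasure μ] (J : ℕ) (u : ℕ → ℂ) (t : ℕ → ℝ) :
    ∫ x, TT J u t x ∂μ = ∑ N ∈ range J, (u N * charFun μ (t N)).re := by
  unfold TT
  rw [int_sum _ fun _ _ => bm_re _ _]
  simp only [int_re]

lemma int_TT_sq (μ : Measure ℝ) [IsProbabilityMeasure μ] (J : ℕ) {u : ℕ → ℂ} (hu : ∀ N, ‖u N‖ = 1)
    (t : ℕ → ℝ) : ∫ x, TT J u t x ^ 2 ∂μ ≤
      ∑ N ∈ range J, ∑ M ∈ range J, ‖charFun μ (t N - t M)‖ := by
  have e1 : ∀ x : ℝ, TT J u t x ^ 2 ≤ ∑ N ∈ range J, ∑ M ∈ range J,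
      (u N * (starRingEnd ℂ) (u M) * Complex.exp ((t N - t M : ℝ) * x * Complex.I)).re := by
    intro x
    set w := ∑ N ∈ range J, u N * Complex.exp (t N * x * Complex.I) with hw
    have a1 : TT J u t x = w.re := by rw [hw, Complex.re_sum, TT]
    have a2 : (w * (starRingEnd ℂ) w).re = w.re ^ 2 + w.im ^ 2 := by simp [sq]
    rw [a1]
    refine le_trans (by linarith [sq_nonneg w.im]) (a2.symm.trans_le (le_of_eq ?_))
    rw [hw, map_sum, sum_mul_sum, Complex.re_sum]
    refine sum_congr rfl fun N _ => ?_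
    rw [Complex.re_sum]
    refine sum_congr rfl fun M _ => ?_
    rw [map_mul, ← Complex.exp_conj, mul_mul_mul_comm, ← Complex.exp_add]
    congr 3
    simp; ring
  refine (int_mono ((bm_TT J u t).pow 2) (BM.sum _ fun _ _ => BM.sum _ fun _ _ => bm_re _ _)
    e1).trans ?_
  rw [int_sum _ fun _ _ => BM.sum _ fun _ _ => bm_re _ _]
  refine sum_le_sum fun N _ => ?_
  rw [int_sum _ fun _ _ => bm_re _ _]
  refine sum_le_sum fun M _ => ?_
  rw [int_re]
  refine (Complex.re_le_norm _).trans_eq ?_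
  rw [norm_mul, norm_mul, Complex.norm_conj, hu, hu, one_mul, one_mul]

section
variable {Y : ℝ → ℝ} (hY : BM Y) (μ : Measure ℝ) [IsProbabilityMeasure μ] {a : ℝ} (ha : 0 ≤ a)
include hY ha

lemma bm_ind : BM fun x => if a ≤ Y x then (1 : ℝ) else 0 :=
  (BM.const 1).ite (BM.const 0) (measurableSet_le measurable_const hY.meas)

lemma int_ind : ∫ x, (if a ≤ Y x then (1 : ℝ) else 0) ∂μ = μ.real {x | a ≤ Y x} := by
  rw [← integral_indicator_one (measurableSet_le measurable_const hY.meas)]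
  simp only [Set.indicator, Set.mem_ofPred_eq, Pi.one_apply]

lemma cheb : a ^ 2 * μ.real {x | a ≤ Y x} ≤ ∫ x, Y x ^ 2 ∂μ := by
  rw [← int_ind hY μ ha, ← integral_const_mul]
  refine int_mono ((BM.const _).mul (bm_ind hY ha)) (hY.pow 2) fun x => ?_
  split_ifs with h
  · rw [mul_one]; exact pow_le_pow_left₀ ha h 2
  · rw [mul_zero]; exact sq_nonneg _

lemma paley (h : 2 * a ≤ ∫ x, Y x ∂μ) : a ^ 2 ≤ (∫ x, Y x ^ 2 ∂μ) * μ.real {x | a ≤ Y x} := by
  have b := bm_ind hY ha
  have a1 := int_cs (μ := μ) hY b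
  have a2 : ∫ x, Y x ∂μ ≤ ∫ x, (a + Y x * if a ≤ Y x then (1 : ℝ) else 0) ∂μ :=
    int_mono hY ((BM.const _).add (hY.mul b)) fun x => by split_ifs <;> linarith
  rw [int_add (BM.const _) (hY.mul b), int_const] at a2
  simp only [ite_pow, one_pow, ne_eq, OfNat.ofNat_ne_zero, not_false_eq_true, zero_pow] at a1
  rw [int_ind hY μ ha] at a1
  exact (pow_le_pow_left₀ ha (by linarith) 2).trans a1

end

lemma gauss_le {s D : ℝ} (D0 : 0 < D) (h : 1 ≤ D * s) : ‖charFun (gaussianReal 0 1) s‖ ≤ D := by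
  have s0 : 0 < s := by by_contra h'; nlinarith
  have : (s * (0 : ℝ) * Complex.I - (1 : NNReal) * s ^ 2 / 2 : ℂ) = (-(s ^ 2 / 2) : ℝ) := by simp
  rw [charFun_gaussianReal, this, Complex.norm_exp_ofReal, exp_neg, inv_le_comm₀ (exp_pos _) D0,
    inv_eq_one_div, div_le_iff₀ D0]
  nlinarith [mul_le_mul_of_nonneg_right (show s ≤ exp (s ^ 2 / 2) by
    nlinarith [add_one_le_exp (s ^ 2 / 2), sq_nonneg (s - 1)]) D0.le]

theorem not_ac (H : Hyp β κ ρ z) (o : Ok β κ ρ z 1 1 1 0) {c0 : ℝ} (h0 : 0 < c0)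
    (hc : ∀ k, c0 ≤ cc (aa β κ 1 k)) (ν : Measure ℝ) [IsProbabilityMeasure ν]
    (hν : SS β (charFun ν)) : ¬ ν ≪ volume := by
  intro hac
  have b0 : 0 < β := by linarith [H.hβ]
  have bb := b1_nonneg H.hβ
  have κ0 := H.κ0
  obtain ⟨c, E, c0, E0, F⟩ := exists_freq H o h0 hc
  set K1 := exp (-(16 / c * (3 * b1 β + 2)))
  set K2 := exp (π * (b1 β + E) / c)
  have K0 : 0 < K1 := exp_pos _
  have hac' := hac.trans (gaussianReal_absolutelyContinuous' 0 one_ne_zero)
  obtain ⟨δ, δ0, hδ⟩ := exists_pos_setLIntegral_lt_of_measure_lt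
    (Measure.lintegral_rnDeriv_lt_top ν (gaussianReal 0 1)).ne
    (ε := ENNReal.ofReal (K1 ^ 2 / 4 / (4 * E + K2 ^ 2))) (by simp; positivity)
  simp only [Measure.setLIntegral_rnDeriv hac'] at hδ
  obtain ⟨r, -, r0, r1⟩ := ENNReal.lt_iff_exists_real_btwn.1 δ0
  rw [ENNReal.ofReal_pos] at r0
  set D := 1 + 2 * (b1 β / κ * b1 β)
  have D0 : 0 < D := by positivity
  obtain ⟨g, g', h, W, x, o, x0, hε, hW, hc, hP⟩ := F (min 1 (r * K1 ^ 2 / (8 * D))) (by positivity)
  set P := WP β κ g W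
  have P0 : 0 ≤ P := WP_nonneg
  set J := ⌊exp (2 * x)⌋₊
  have e2 : exp (2 * x) * exp (-x) ^ 2 = 1 := by rw [sq, ← exp_add, ← exp_add]; simp [two_mul]
  have J1 : (J : ℝ) ≤ exp (2 * x) := Nat.floor_le (exp_pos _).le
  have J2 : (1 : ℝ) ≤ J := by exact_mod_cast Nat.floor_pos.2 (one_le_exp (by linarith))
  have J3 : 1 ≤ 2 * J * exp (-x) ^ 2 := by
    nlinarith [mul_le_mul_of_nonneg_right (show exp (2 * x) ≤ 2 * J by
      linarith [Nat.lt_floor_add_one (exp (2 * x))]) (sq_nonneg (exp (-x)))]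
  have x1 : exp (-x) ≤ 1 := exp_le_one_iff.2 (by linarith)
  have xp := exp_pos (-x)
  have P1 : 0 < P ^ 2 := by
    by_contra h
    nlinarith [show 0 < min 1 (r * K1 ^ 2 / (8 * D)) by positivity]
  have ea : ∀ N n : ℕ, β⁻¹ ^ n * aa β κ g N = aa β κ g (N - n) := fun N n => by
    rw [aa, aa, zpow_sub₀ b0.ne', zpow_natCast β n, inv_pow]; ring
  choose u hu hu' using fun N : ℕ => Complex.exists_norm_eq_mul_self (charFun ν (π * aa β κ g N))
  set Y := TT J u fun N => π * aa β κ g N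
  have bY : BM Y := bm_TT _ _ _
  have a0 : 0 ≤ J * P * K1 / 2 := by positivity
  have m1 : 2 * (J * P * K1 / 2) ≤ ∫ y, Y y ∂ν := by
    rw [int_TT]
    refine le_trans (le_of_eq (by simp; ring)) (card_nsmul_le_sum _ _ (P * K1) fun N hN => ?_)
    rw [← hu', Complex.ofReal_re]
    refine hν.low H.hβ continuous_charFun (by simp) fun L => ?_
    simp only [ea]
    have : (N : ℝ) ≤ J := by exact_mod_cast (mem_range.1 hN).le
    exact fin_low H o c0 hε hc (by nlinarith) L
  have m2 : ∫ y, Y y ^ 2 ∂ν ≤ (J * P) ^ 2 * (4 * E + K2 ^ 2) := by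
    have k1 : ∀ N M : ℕ, M + (W + 1) ≤ N →
        ‖charFun ν (π * aa β κ g N - π * aa β κ g M)‖ ≤ (P * K2) ^ 2 := fun N M hN => by
      rw [← mul_sub, hν.norm _ (N + (W + 1))]
      simp only [mul_sub, ea]
      exact (mul_le_of_le_one_right (prod_nonneg fun _ _ => cc_nonneg _)
        (norm_charFun_le_one _)).trans (fin_up H o c0 hε hW hc hN)
    refine (int_TT_sq ν J hu _).trans ((sum_le_card_nsmul _ _ (2 * (W + 1) + J * (P * K2) ^ 2)
      fun N _ => ?_).trans ?_)
    · refine (sum_le_sum (g := fun M => (if M ∈ Icc (N - W) (N + W) then 1 else 0) + (P * K2) ^ 2)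
        fun M _ => ?_).trans ?_
      · split_ifs with h1
        · exact (norm_charFun_le_one _).trans (le_add_of_nonneg_right (sq_nonneg _))
        · rw [zero_add]
          rw [mem_Icc] at h1
          rcases le_total M N with h2 | h2
          · exact k1 N M (by omega)
          · rw [← neg_sub, charFun_neg, Complex.norm_conj]
            exact k1 M N (by omega)
      · rw [sum_add_distrib, sum_const, card_range, nsmul_eq_mul, sum_boole]
        refine add_le_add ?_ le_rfl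
        have : #{M ∈ range J | M ∈ Icc (N - W) (N + W)} ≤ 2 * (W + 1) :=
          (card_le_card fun M hM => (mem_filter.1 hM).2).trans (by rw [Nat.card_Icc]; omega)
        exact_mod_cast this
    · rw [card_range, nsmul_eq_mul]
      have q1 := hP.trans (mul_le_of_le_one_left P1.le (min_le_left _ _))
      have q2 : (W : ℝ) + 1 ≤ 2 * J * (E * P ^ 2) := by
        nlinarith [mul_le_mul hW q1 xp.le E0.le, mul_le_mul_of_nonneg_left J3
          (show (0 : ℝ) ≤ W + 1 by positivity)]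
      nlinarith [mul_le_mul_of_nonneg_left q2 (show (0 : ℝ) ≤ J by positivity)]
  have m3 : ∫ y, Y y ^ 2 ∂gaussianReal 0 1 ≤ J * D := by
    have k1 : ∀ N M : ℕ, M < N → ‖charFun (gaussianReal 0 1)
        (π * aa β κ g N - π * aa β κ g M)‖ ≤ b1 β / κ * β⁻¹ ^ N := fun N M hN => by
      have bi : 0 < 1 - β⁻¹ := sub_pos.2 (inv_lt_one_of_one_lt₀ H.hβ)
      refine gauss_le (mul_pos (div_pos (inv_pos.2 bi) κ0) (by positivity)) ?_
      have q1 : β ^ M ≤ β⁻¹ * β ^ N := by
        rw [le_inv_mul_iff₀ b0, ← pow_succ']; exact pow_le_pow_right₀ H.hβ.le hN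
      have q2 : κ * ((1 - β⁻¹) * β ^ N) ≤ π * aa β κ g N - π * aa β κ g M := by
        simp only [aa, zpow_natCast]
        have q3 : 1 ≤ π * g := by nlinarith [pi_gt_three, o.one_le]
        have q4 : 0 ≤ κ * ((1 - β⁻¹) * β ^ N) := by positivity
        nlinarith [mul_le_mul_of_nonneg_left q1 (show 0 ≤ π * κ * g by
          have := o.one_le; positivity), mul_le_mul_of_nonneg_right q3 q4]
      refine le_trans (le_of_eq ?_) (mul_le_mul_of_nonneg_left q2 (by positivity))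
      have : β - 1 ≠ 0 := by linarith [H.hβ]
      rw [b1, inv_pow]
      field_simp
    refine (int_TT_sq _ J hu _).trans ((sum_le_sum fun N _ => sum_le_sum (g := fun M =>
      (if N = M then 1 else 0) + (b1 β / κ * β⁻¹ ^ N + b1 β / κ * β⁻¹ ^ M)) fun M _ => ?_).trans ?_)
    · rcases lt_trichotomy M N with h1 | h1 | h1
      · rw [if_neg h1.ne', zero_add]
        exact (k1 N M h1).trans (le_add_of_nonneg_right (by positivity))
      · rw [if_pos h1.symm]
        exact (norm_charFun_le_one _).trans (le_add_of_nonneg_right (by positivity))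
      · rw [← neg_sub, charFun_neg, Complex.norm_conj, if_neg h1.ne, zero_add]
        exact (k1 M N h1).trans (le_add_of_nonneg_left (by positivity))
    · simp only [sum_add_distrib, sum_ite_eq, sum_const, card_range, nsmul_eq_mul, ← mul_sum]
      have q1 := geo_inj H.hβ (range J) id fun _ _ _ _ h => h
      have q2 : ∑ N ∈ range J, (if N ∈ range J then (1 : ℝ) else 0) = J := by
        rw [sum_congr rfl fun N hN => if_pos hN]; simp
      simp only [id] at q1
      rw [q2]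
      nlinarith [mul_le_mul_of_nonneg_left q1 (show 0 ≤ J * (b1 β / κ) by positivity)]
  have p1 := (paley bY ν a0 m1).trans (mul_le_mul_of_nonneg_right m2 measureReal_nonneg)
  have p2 := (cheb bY (gaussianReal 0 1) a0).trans m3
  set A := {y | J * P * K1 / 2 ≤ Y y}
  have JP : 0 < (J * P) ^ 2 := by rw [mul_pow]; positivity
  have p3 : (gaussianReal 0 1).real A ≤ r := by
    have q1 := hP.trans (mul_le_mul_of_nonneg_right (min_le_right _ _) P1.le)
    rw [div_mul_eq_mul_div, le_div_iff₀ (by positivity)] at q1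
    have q2 : 1 ≤ 2 * J * exp (-x) := by nlinarith [mul_le_mul_of_nonneg_left x1 xp.le]
    refine le_of_mul_le_mul_left (p2.trans ?_) (show 0 < (J * P * K1 / 2) ^ 2 by
      rw [div_pow, mul_pow]; positivity)
    nlinarith [mul_le_mul_of_nonneg_left q1 (show (0 : ℝ) ≤ J ^ 2 by positivity),
      mul_le_mul_of_nonneg_left q2 (show (0 : ℝ) ≤ J * D by positivity)]
  have p4 := hδ A (lt_of_le_of_lt (by
    rw [← ofReal_measureReal]; exact ENNReal.ofReal_le_ofReal p3) r1)
  rw [← ofReal_measureReal, ENNReal.ofReal_lt_ofReal_iff (by positivity),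
    lt_div_iff₀ (by positivity)] at p4
  nlinarith [mul_lt_mul_of_pos_left p4 JP]

end Crest.Agent.H5.Sal
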