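import Mathlib
import Crest.Prelude.Def_BernoulliConv
import Crest.Agent.H5.Sal.Meas

/-!
Self-similarity and pure type of Bernoulli convolutions.
-/

set_option autoImplicit false

namespace Crest.Agent.H5.Sal

open Real Filter Topology MeasureTheory Crest.AnalysisR
open scoped ENNReal

/-- the self-similarity operator -/
noncomputable def FF (c : ℝ) (μ : Measure ℝ) : Measure ℝ :=
  (2⁻¹ : ℝ≥0∞) • (μ.map (c * ·)).map (1 + ·) + (2⁻¹ : ℝ≥0∞) • (μ.map (c * ·)).map (-1 + ·)

instance (c : ℝ) (μ : Measure ℝ) [IsFiniteMeasure μ] : IsFiniteMeasure (FF c μ) := by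
  have (ν : Measure ℝ) [IsFiniteMeasure ν] : IsFiniteMeasure ((2⁻¹ : ℝ≥0∞) • ν) :=
    Measure.smul_finite ν (by simp)
  unfold FF
  infer_instance

lemma FF_add (c : ℝ) (μ ν : Measure ℝ) : FF c (μ + ν) = FF c μ + FF c ν := by
  simp only [FF, Measure.map_add _ _ (measurable_const_mul c),
    Measure.map_add _ _ (measurable_const_add _), smul_add]
  abel

lemma map_vol {c : ℝ} (hc : c ≠ 0) (b : ℝ) :
    ((volume : Measure ℝ).map (c * ·)).map (b + ·) = ENNReal.ofReal |c⁻¹| • volume := by
  rw [Real.map_volume_mul_left hc, Measure.map_smul, map_add_left_eq_self]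

lemma FF_ac {c : ℝ} (hc : c ≠ 0) {μ : Measure ℝ} (h : μ ≪ volume) : FF c μ ≪ volume := by
  have (b : ℝ) : (μ.map (c * ·)).map (b + ·) ≪ volume := by
    refine ((h.map (measurable_const_mul c)).map (measurable_const_add b)).trans ?_
    rw [map_vol hc]
    exact Measure.smul_absolutelyContinuous
  exact ((this 1).smul_left _).add_left ((this (-1)).smul_left _)

lemma FF_sing {c : ℝ} (hc : c ≠ 0) {μ : Measure ℝ} (h : μ ⟂ₘ volume) : FF c μ ⟂ₘ volume := by
  have (b : ℝ) : (μ.map (c * ·)).map (b + ·) ⟂ₘ volume := by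
    have := (measurableEmbedding_addLeft b).mutuallySingular_map
      ((measurableEmbedding_mulLeft₀ hc).mutuallySingular_map h)
    rw [map_vol hc] at this
    exact this.mono_ac .rfl (Measure.absolutelyContinuous_smul (by simpa using hc))
  exact ((this 1).smul _).add_left ((this (-1)).smul _)

lemma charFun_smul' (μ : Measure ℝ) (a : ℝ≥0∞) (t : ℝ) :
    charFun (a • μ) t = a.toReal * charFun μ t := by
  simp [charFun_apply_real]

lemma charFun_add' (μ ν : Measure ℝ) [IsFiniteMeasure μ] [IsFiniteMeasure ν] (t : ℝ) :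
    charFun (μ + ν) t = charFun μ t + charFun ν t := by
  simp only [charFun_apply_real]
  exact integral_add_measure (by simpa using int_exp μ 1 t) (by simpa using int_exp ν 1 t)

lemma FF_SS {β : ℝ} {μ : Measure ℝ} [IsFiniteMeasure μ] (h : FF β⁻¹ μ = μ) : SS β (charFun μ) := by
  intro t
  have (ν : Measure ℝ) [IsFiniteMeasure ν] : IsFiniteMeasure ((2⁻¹ : ℝ≥0∞) • ν) :=
    Measure.smul_finite ν (by simp)
  conv_lhs => rw [← h, FF, charFun_add', charFun_smul', charFun_smul', charFun_map_const_add,
    charFun_map_const_add, charFun_map_mul]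
  simp [Complex.cos]
  ring

lemma pure_type {β : ℝ} (hβ : 1 < β) {ν : Measure ℝ} [IsProbabilityMeasure ν]
    (h : FF β⁻¹ ν = ν) (hν : ¬ ν ≪ volume) : ν ⟂ₘ volume := by
  have c0 : β⁻¹ ≠ 0 := by positivity
  have hs := ν.mutuallySingular_singularPart volume
  set s := ν.singularPart volume with hs'
  have e : FF β⁻¹ s = s := by
    conv_rhs => rw [hs', ← h, ν.haveLebesgueDecomposition_add volume, FF_add,
      Measure.singularPart_add, Measure.singularPart_eq_self.2 (FF_sing c0 hs),
      Measure.singularPart_eq_zero_of_ac (FF_ac c0 (withDensity_absolutelyContinuous _ _)), add_zero]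
  have : IsFiniteMeasure (s Set.univ • ν) := Measure.smul_finite ν (measure_ne_top _ _)
  have e2 : s = s Set.univ • ν := by
    refine Measure.ext_of_charFun (funext fun t => ?_)
    rw [charFun_smul', ← sub_eq_zero]
    refine SS.zero (φ := fun t => charFun s t - (s Set.univ).toReal * charFun ν t) hβ
      (fun t => ?_) (continuous_charFun.sub (continuous_charFun.const_mul _)) (by
        simp [Measure.real]) t
    simp only
    rw [FF_SS e t, FF_SS h t]
    ring
  refine hs.mono_ac ?_ .rfl
  rw [e2]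
  refine Measure.absolutelyContinuous_smul fun h0 => hν ?_
  rwa [Measure.measure_univ_eq_zero, hs', Measure.singularPart_eq_zero] at h0

instance : IsProbabilityMeasure fairCoin := ⟨by simp [fairCoin, ENNReal.inv_two_add_inv_two]⟩

lemma summ {c : ℝ} (c0 : 0 ≤ c) (c1 : c < 1) (ε : ℕ → Bool) :
    Summable fun n => if ε n then c ^ n else -(c ^ n) :=
  .of_norm_bounded (summable_geometric_of_lt_one c0 c1) fun n => by
    split_ifs <;> simp [abs_of_nonneg c0]

lemma meas_sps {c : ℝ} (c0 : 0 ≤ c) (c1 : c < 1) : Measurable (signedPowerSum c) := by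
  refine Continuous.measurable (continuous_tsum (u := fun n => c ^ n) (fun n => ?_)
    (summable_geometric_of_lt_one c0 c1) fun n ε => by split_ifs <;> simp [abs_of_nonneg c0])
  exact (continuous_of_discreteTopology (f := fun b : Bool => if b then c ^ n else -(c ^ n))).comp
    (continuous_apply n)

lemma sps_update {c : ℝ} (c0 : 0 ≤ c) (c1 : c < 1) (ε : ℕ → Bool) (b : Bool) :
    signedPowerSum c (Function.update ε 0 b) =
      (if b then 1 else -1) + c * signedPowerSum c (fun n => ε (n + 1)) := by
  rw [signedPowerSum, (summ c0 c1 _).tsum_eq_zero_add, signedPowerSum, ← tsum_mul_left]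
  refine congrArg₂ _ (by simp) (tsum_congr fun n => ?_)
  rw [Function.update_of_ne (Nat.succ_ne_zero n)]
  split_ifs <;> ring

lemma FF_bc {c : ℝ} (c0 : 0 ≤ c) (c1 : c < 1) :
    FF c (bernoulliConvolution c) = bernoulliConvolution c := by
  have m := meas_sps c0 c1
  have h := map_update_infinitePi (fun _ : ℕ => fairCoin) 0
  have h2 := Measure.map_infinitePi_infinitePi_of_inj (P := fun _ : ℕ => fairCoin)
    Nat.succ_injective
  have m2 : Measurable fun (ε : ℕ → Bool) (n : ℕ) => ε n.succ :=
    measurable_pi_lambda _ fun k => measurable_pi_apply _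
  unfold bernoulliConvolution
  set P := Measure.infinitePi fun _ : ℕ => fairCoin
  have e : P.prod fairCoin = (2⁻¹ : ℝ≥0∞) • P.map (fun x => (x, true)) +
      (2⁻¹ : ℝ≥0∞) • P.map (fun x => (x, false)) := by
    have (b : Bool) : IsFiniteMeasure ((2⁻¹ : ℝ≥0∞) • Measure.dirac b) :=
      Measure.smul_finite _ (by simp)
    conv_lhs => rw [fairCoin]
    rw [Measure.prod_add, Measure.prod_smul_right, Measure.prod_smul_right, Measure.prod_dirac,
      Measure.prod_dirac]
  conv_rhs => rw [← h, e]
  conv_lhs => rw [← h2]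
  have m3 : Measurable fun p : (ℕ → Bool) × Bool => Function.update p.1 0 p.2 := measurable_update'
  rw [Measure.map_map m m3, Measure.map_add _ _ (m.comp m3), Measure.map_smul, Measure.map_smul,
    Measure.map_map (m.comp m3) (by fun_prop), Measure.map_map (m.comp m3) (by fun_prop), FF,
    Measure.map_map m m2, Measure.map_map (measurable_const_mul c) (m.comp m2),
    Measure.map_map (measurable_const_add _) ((measurable_const_mul c).comp (m.comp m2)),
    Measure.map_map (measurable_const_add _) ((measurable_const_mul c).comp (m.comp m2))]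
  congr 3 <;> ext ε <;> simp [sps_update c0 c1]

theorem sing {β κ ρ : ℝ} {z : ℂ} (H : Hyp β κ ρ z) (o : Ok β κ ρ z 1 1 1 0) {c0 : ℝ}
    (h0 : 0 < c0) (hc : ∀ k, c0 ≤ cc (aa β κ 1 k)) : bernoulliConvolution β⁻¹ ⟂ₘ volume := by
  have b0 : 0 ≤ β⁻¹ := inv_nonneg.2 (by linarith [H.hβ])
  have b1 := inv_lt_one_of_one_lt₀ H.hβ
  have : IsProbabilityMeasure (bernoulliConvolution β⁻¹) :=
    Measure.isProbabilityMeasure_map (meas_sps b0 b1).aemeasurable
  exact pure_type H.hβ (FF_bc b0 b1) (not_ac H o h0 hc _ (FF_SS (FF_bc b0 b1)))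

end Crest.Agent.H5.Sal
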