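import Mathlib
import Crest.Agent.H5.Sal.Pure

/-!
The two quartic Salem numbers below `2`.
-/

set_option autoImplicit false

namespace Crest.Agent.H5.Sal

open Real MeasureTheory Crest.AnalysisR Polynomial

lemma salem_eq {β : ℝ} (hβ : IsQuarticSalem β) (h2 : β < 2) : ∃ a c : ℤ,
    (β + β⁻¹) ^ 2 - a * (β + β⁻¹) + c = 0 ∧ (a = 1 ∧ c = -3 ∨ a = 2 ∧ c = -1) := by
  obtain ⟨b1, hi, hd, hinv, hr⟩ := hβ
  have b0 : 0 < β := by linarith
  have hq := minpoly.isIntegrallyClosed_eq_field_fractions' ℚ hi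
  set P := minpoly ℤ β
  have hm : (minpoly ℚ β).coeff 4 = 1 := hd ▸ (minpoly.monic hi.tower_top).coeff_natDegree
  have ev : ∀ {A : Type} [Field A] [Algebra ℚ A] (x : A), aeval x (minpoly ℚ β) =
      x ^ 4 + P.coeff 3 * x ^ 3 + P.coeff 2 * x ^ 2 + P.coeff 1 * x + P.coeff 0 := by
    intro A _ _ x
    rw [aeval_eq_sum_range, hd]
    simp only [Finset.sum_range_succ, hm]
    simp [hq, Algebra.smul_def]
    ring
  have li : ∀ p q r s : ℤ, p * β ^ 3 + q * β ^ 2 + r * β + s = 0 →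
      p = 0 ∧ q = 0 ∧ r = 0 ∧ s = 0 := by
    intro p q r s h
    have := linearIndependent_pow (K := ℚ) β
    rw [hd, Fintype.linearIndependent_iff] at this
    have := this ![s, r, q, p] (by simp [Fin.sum_univ_succ, Algebra.smul_def]; linarith)
    exact ⟨by simpa using this 3, by simpa using this 2, by simpa using this 1,
      by simpa using this 0⟩
  have e1 := minpoly.aeval ℚ β
  rw [ev] at e1 hinv
  simp only [ev] at hr
  generalize P.coeff 3 = a3, P.coeff 2 = a2, P.coeff 1 = a1, P.coeff 0 = a0 at e1 hinv hr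
  field_simp at hinv
  obtain ⟨q1, q2, q3, q4⟩ := li (a1 - a0 * a3) (a2 - a0 * a2) (a3 - a0 * a1) (1 - a0 * a0) (by
    push_cast; linear_combination hinv - a0 * e1)
  have bb : β * β⁻¹ = 1 := mul_inv_cancel₀ b0.ne'
  have y1 : 2 < β + β⁻¹ := by
    have := mul_pos (inv_pos.2 b0) (pow_pos (sub_pos.2 b1) 2)
    nlinarith
  have y2 : β + β⁻¹ < 5 / 2 := by
    have := mul_pos (inv_pos.2 b0) (mul_pos (sub_pos.2 h2) (show 0 < 2 * β - 1 by linarith))
    nlinarith
  rcases mul_self_eq_one_iff.1 (sub_eq_zero.1 q4).symm with rfl | rfl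
  swap
  · obtain rfl : a2 = 0 := by omega
    obtain rfl : a1 = -a3 := by omega
    have : (β ^ 2 - 1) * (β ^ 2 + a3 * β + 1) = 0 := by push_cast at e1; linear_combination e1
    have := (li 0 1 a3 1 (by
      simpa using (mul_eq_zero.1 this).resolve_left (by nlinarith))).2.1
    omega
  obtain rfl : a1 = a3 := by omega
  have ey : (β + β⁻¹) ^ 2 + a1 * (β + β⁻¹) + (a2 - 2) = 0 := by
    field_simp; push_cast at e1; linear_combination e1
  generalize hy : β + β⁻¹ = y at *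
  have y3 : |-a1 - y| < 2 := by
    by_contra h
    have h : 0 ≤ (-a1 - y) ^ 2 - 4 := by nlinarith [sq_abs (-a1 - y)]
    set w := (-a1 - y + √((-a1 - y) ^ 2 - 4)) / 2 with hw
    have ew : w ^ 2 + (a1 + y) * w + 1 = 0 := by rw [hw]; linarith [sq_sqrt h]
    have := hr w (by
      have : w ^ 4 + a1 * w ^ 3 + a2 * w ^ 2 + a1 * w + 1 = 0 := by
        linear_combination (w ^ 2 - y * w + 1) * ew + w ^ 2 * ey
      exact_mod_cast this)
    simp only [Complex.ofReal_inj, Complex.norm_real, norm_eq_abs] at this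
    have k1 : ¬ (a1 : ℝ) = -2 * y := fun h => by
      have u1 : (-5 : ℝ) < a1 := by linarith
      have u2 : (a1 : ℝ) < -4 := by linarith
      norm_cast at u1 u2
      omega
    have k2 : ∀ n : ℤ, ¬ y = n := fun n h => by
      have u1 : (2 : ℝ) < n := by linarith
      have u2 : (n : ℝ) < 3 := by linarith
      norm_cast at u1 u2
      omega
    rcases this with h | h | h
    · rw [h] at ew
      exact k1 (by linear_combination β⁻¹ * ew - hy - (β + a1 + y) * bb)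
    · rw [h] at ew
      exact k1 (by linear_combination β * ew - hy - (β⁻¹ + a1 + y) * bb)
    · rcases (abs_eq zero_le_one).1 h with h | h <;> rw [h] at ew
      · exact k2 (-2 - a1) (by push_cast; linarith)
      · exact k2 (2 - a1) (by push_cast; linarith)
  rw [abs_lt] at y3
  have f1 : (2 + 2 * a1 + a2 : ℝ) < 0 := by nlinarith [y3.2]
  have f2 : (0 : ℝ) < 17 + 10 * a1 + 4 * a2 := by nlinarith [y3.2]
  have f3 : (0 : ℝ) < 2 - 2 * a1 + a2 := by nlinarith [y3.1]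
  norm_cast at f1 f2 f3
  exact ⟨-a1, a2 - 2, by push_cast; linarith, by omega⟩

lemma rec_int {w : ℤ → ℝ} (a b : ℤ)
    (h : ∀ k, w (k + 4) - a * w (k + 3) + b * w (k + 2) - a * w (k + 1) + w k = 0)
    (h0 : ∀ i ∈ ({0, 1, 2, 3} : Finset ℤ), ∃ n : ℤ, w (-1 + i) = n) (k : ℤ) : ∃ n : ℤ, w k = n := by
  have : ∀ k : ℤ, ∀ i ∈ ({0, 1, 2, 3} : Finset ℤ), ∃ n : ℤ, w (k - 1 + i) = n := by
    intro k
    induction k using Int.induction_on with
    | zero => simpa using h0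
    | succ k ih =>
      simp only [Finset.mem_insert, Finset.mem_singleton, forall_eq_or_imp, forall_eq] at ih ⊢
      obtain ⟨⟨n0, e0⟩, ⟨n1, e1⟩, ⟨n2, e2⟩, n3, e3⟩ := ih
      have := h (k - 1)
      refine ⟨⟨n1, by rw [← e1]; ring_nf⟩, ⟨n2, by rw [← e2]; ring_nf⟩, ⟨n3, by rw [← e3]; ring_nf⟩,
        a * n3 - b * n2 + a * n1 - n0, ?_⟩
      rw [add_zero] at e0
      rw [e0, e1, e2, e3, show (k : ℤ) - 1 + 4 = k + 1 - 1 + 3 by ring] at this
      push_cast; linarith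
    | pred k ih =>
      simp only [Finset.mem_insert, Finset.mem_singleton, forall_eq_or_imp, forall_eq] at ih ⊢
      obtain ⟨⟨n0, e0⟩, ⟨n1, e1⟩, ⟨n2, e2⟩, n3, e3⟩ := ih
      have := h (-k - 1 - 1)
      refine ⟨⟨a * n2 - b * n1 + a * n0 - n3, ?_⟩, ⟨n0, by rw [← e0]; ring_nf⟩,
        ⟨n1, by rw [← e1]; ring_nf⟩, n2, by rw [← e2]; ring_nf⟩
      rw [show -(k : ℤ) - 1 - 1 + 4 = -k - 1 + 3 by ring,
        show -(k : ℤ) - 1 - 1 + 3 = -k - 1 + 2 by ring,
        show -(k : ℤ) - 1 - 1 + 2 = -k - 1 + 1 by ring,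
        show -(k : ℤ) - 1 - 1 + 1 = -k - 1 + 0 by ring, e0, e1, e2, e3] at this
      rw [add_zero]
      push_cast; linarith
  simpa using this (k + 1) 0 (by simp)

lemma cc_ge {u m : ℝ} (m1 : m ≤ 1 / 2) (n : ℤ) (h : |u - n| ≤ m) : cos (π * m) ≤ cc u := by
  rw [← sub_add_cancel u n, cc_int, cc]
  refine le_trans ?_ (le_abs_self _)
  rw [← cos_abs (π * (u - n)), abs_mul, abs_of_pos pi_pos]
  exact cos_le_cos_of_nonneg_of_le_pi (by positivity) (by nlinarith [pi_pos])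
    (mul_le_mul_of_nonneg_left h pi_pos.le)

theorem main {β : ℝ} (hβ : IsQuarticSalem β) (h2 : β < 2) :
    bernoulliConvolution β⁻¹ ⟂ₘ volume := by
  obtain ⟨a, c, ey, hac⟩ := salem_eq hβ h2
  have b1 := hβ.1
  have b0 : 0 < β := by linarith
  have bb : β * β⁻¹ = 1 := mul_inv_cancel₀ b0.ne'
  have bi : β⁻¹ < 1 := inv_lt_one_of_one_lt₀ b1
  have bi0 : 0 < β⁻¹ := inv_pos.2 b0
  have y1 : 2 < β + β⁻¹ := by
    have := mul_pos bi0 (pow_pos (sub_pos.2 b1) 2)
    nlinarith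
  generalize hy : β + β⁻¹ = y at *
  obtain ⟨δ, hδ⟩ : ∃ δ, δ = 2 * y - a := ⟨_, rfl⟩
  have n0 : 7.4 ≤ δ ^ 2 * (1 - (a - y) ^ 2 / 4) ∧ 1.71 ≤ β ∧ 0 < δ ∧
      β ≤ 0.495 * ((β - β⁻¹) * δ) := by
    rcases hac with ⟨rfl, rfl⟩ | ⟨rfl, rfl⟩ <;> push_cast at ey hδ ⊢
    · have y2 : 2.3 ≤ y := by nlinarith
      have y3 : 1.71 ≤ β := by nlinarith
      have y4 : β⁻¹ ≤ 0.35 * β := by nlinarith
      refine ⟨?_, y3, by linarith, by nlinarith⟩
      rw [show δ ^ 2 = 13 by nlinarith]; nlinarith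
    · have y2 : 2.414 ≤ y := by nlinarith
      have y3 : 1.88 ≤ β := by nlinarith
      have y4 : β⁻¹ ≤ 0.283 * β := by nlinarith
      refine ⟨?_, by linarith, by linarith, by nlinarith⟩
      rw [show δ ^ 2 = 8 by nlinarith]; nlinarith
  obtain ⟨n1, n2, δ0, n3⟩ := n0
  have s0 : 0 < 1 - (a - y) ^ 2 / 4 := by
    by_contra h; nlinarith [sq_nonneg δ]
  obtain ⟨s, s1, hs⟩ : ∃ s : ℝ, 0 < s ∧ s ^ 2 = 1 - (a - y) ^ 2 / 4 :=
    ⟨_, sqrt_pos.2 s0, sq_sqrt s0.le⟩
  have d0 : 0 < β - β⁻¹ := by linarith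
  set κ := 1 / ((β - β⁻¹) * δ) with hκ
  set ρ := 1 / (δ * s) with hρ
  set z : ℂ := ⟨(a - y) / 2, s⟩ with hz
  have κ0 : 0 < κ := by positivity
  have κ1 : κ * β ≤ 0.495 := by
    rw [hκ, div_mul_eq_mul_div, one_mul, div_le_iff₀ (by positivity)]; exact n3
  have ρ0 : 0 < ρ := by positivity
  have ρ1 : ρ ≤ 0.37 := by
    rw [hρ, div_le_iff₀ (by positivity)]
    have : 2.72 ≤ δ * s := by
      refine abs_le_of_sq_le_sq' ?_ (by positivity) |>.2
      rw [mul_pow, hs]; linarith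
    linarith
  have z1 : Complex.normSq z = 1 := by rw [hz, Complex.normSq_mk]; linarith
  have z0 : z ≠ 0 := by rintro h; simp [h] at z1
  have H : Hyp β κ ρ z := ⟨b1, κ0, by nlinarith, ρ0.le, by linarith, by
    rw [Complex.norm_def, z1, sqrt_one]⟩
  have ez : z ^ 2 - (a - y : ℝ) * z + 1 = 0 := by
    apply Complex.ext <;> simp [hz, sq] <;> nlinarith
  have pz : z ^ 4 - a * z ^ 3 + (c + 2 : ℤ) * z ^ 2 - a * z + 1 = 0 := by
    have : ((y ^ 2 - a * y + c : ℝ) : ℂ) = 0 := by rw [ey]; simp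
    push_cast at this ez ⊢
    linear_combination (z ^ 2 - y * z + 1) * ez + z ^ 2 * this
  have pb : β ^ 4 - a * β ^ 3 + (c + 2 : ℤ) * β ^ 2 - a * β + 1 = 0 := by
    rw [← hy] at ey
    field_simp at ey
    push_cast
    linear_combination ey
  have hint : ∀ k : ℤ, ∃ n : ℤ, κ * β ^ k - κ * β ^ (-k) - ρ * (z ^ k).im = n := by
    refine rec_int a (c + 2) (fun k => ?_) ?_
    · have e1 := congrArg Complex.im (show z ^ (k + 4) - (a : ℝ) * z ^ (k + 3) +
          ((c + 2 : ℤ) : ℝ) * z ^ (k + 2) - (a : ℝ) * z ^ (k + 1) + z ^ k = 0 by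
        simp only [zpow_add₀ z0, zpow_ofNat, Complex.ofReal_intCast]
        linear_combination z ^ k * pz)
      simp only [Complex.add_im, Complex.sub_im, Complex.im_ofReal_mul, Complex.zero_im] at e1
      have e2 : β ^ (k + 4) - a * β ^ (k + 3) + (c + 2 : ℤ) * β ^ (k + 2) - a * β ^ (k + 1) +
          β ^ k = 0 := by
        simp only [zpow_add₀ b0.ne', zpow_ofNat]
        linear_combination β ^ k * pb
      have e3 : β ^ (-(k + 4)) - a * β ^ (-(k + 3)) + (c + 2 : ℤ) * β ^ (-(k + 2)) -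
          a * β ^ (-(k + 1)) + β ^ (-k) = 0 := by
        simp only [zpow_neg, zpow_add₀ b0.ne', zpow_ofNat]
        field_simp
        linear_combination pb
      linear_combination κ * e2 - κ * e3 - ρ * e1
    · have e1 : κ * (β - β⁻¹) = ρ * s := by
        rw [hκ, hρ]
        generalize β - β⁻¹ = d at d0
        field_simp
      have e2 : ρ * s * δ = 1 := by rw [hρ]; field_simp
      simp only [Finset.mem_insert, Finset.mem_singleton, forall_eq_or_imp, forall_eq]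
      refine ⟨⟨0, ?_⟩, ⟨0, by simp⟩, ⟨0, ?_⟩, 1, ?_⟩
      · simp only [add_zero, zpow_neg, zpow_one, Complex.inv_im, z1, neg_neg]
        simp only [hz]
        push_cast; linarith
      · norm_num [hz]
        linarith
      · norm_num [hz, zpow_ofNat, sq]
        linear_combination (β + β⁻¹) * e1 + e2 + ρ * s * hy - ρ * s * hδ
  refine sing H ⟨fun k => ?_, le_rfl, by simp, by simp⟩ (c0 := cos (π * 0.495))
    (cos_pos_of_mem_Ioo ⟨by nlinarith [pi_pos], by nlinarith [pi_pos]⟩) fun k => ?_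
  · obtain ⟨n, hn⟩ := hint k
    exact ⟨n, by simp only [mul_one, one_mul]; linarith⟩
  · rw [aa, mul_one]
    rcases le_or_gt k 1 with h | h
    · refine cc_ge (by norm_num) 0 ?_
      rw [Int.cast_zero, sub_zero, abs_of_pos (by positivity)]
      refine le_trans (mul_le_mul_of_nonneg_left ?_ κ0.le) κ1
      simpa using zpow_le_zpow_right₀ b1.le h
    · obtain ⟨n, hn⟩ := hint k
      refine cc_ge (by norm_num) n ?_
      have e1 : β ^ (-k) ≤ β⁻¹ ^ 2 := by
        simpa [zpow_ofNat] using zpow_le_zpow_right₀ b1.le (show -k ≤ -2 by omega)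
      have e2 : |(z ^ k).im| ≤ 1 := (Complex.abs_im_le_norm _).trans_eq (by
        rw [norm_zpow, H.hz, one_zpow])
      have e3 : β⁻¹ ^ 2 ≤ 0.21 * β := by
        have : β⁻¹ ≤ 0.585 := by nlinarith
        nlinarith
      have e4 : 0 < β ^ (-k) := by positivity
      rw [← hn, abs_le] at *
      constructor <;> nlinarith [e2.1, e2.2, mul_le_mul_of_nonneg_left (e1.trans e3) κ0.le,
        mul_pos κ0 e4]

end Crest.Agent.H5.Sal
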